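import Vale.Agent.P063.Four

namespace Vale.Agent.P063

open Finset

set_option linter.unusedSectionVars false

variable {E : Type} [Fintype E] [DecidableEq E] {p : ℝ}

lemma hat_cond (h0 : 0 < p) (h1 : p < 1) (f : (E → Bool) → ℝ) (A R : Finset E) (y : E → Bool) :
    hat p (fun x => f (A.piecewise x y)) R =
      ∑ S ∈ univ.filter (fun S => S ∩ A = R), hat p f S * chi p (S \ A) y := by
  have : (fun x => f (A.piecewise x y) * chi p R x) =
      fun x => ∑ S, hat p f S * chi p (S \ A) y * (chi p (S ∩ A) x * chi p R x) := by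
    ext x
    rw [inversion h0 h1 f, Finset.sum_mul]
    exact Finset.sum_congr rfl fun S _ => by rw [chi_piecewise]; ring
  rw [hat, this, Ex_sum, Finset.sum_filter]
  refine Finset.sum_congr rfl fun S _ => ?_
  rw [Ex_mul, Ex_chi_chi h0 h1]; split_ifs <;> simp

lemma Ex_hat_cond (h0 : 0 < p) (h1 : p < 1) (f : (E → Bool) → ℝ) (A : Finset E)
    (F : Finset (Finset E)) :
    Ex p (fun y => ∑ R ∈ F, hat p (fun x => f (A.piecewise x y)) R ^ 2) =
      ∑ S ∈ univ.filter (fun S => S ∩ A ∈ F), hat p f S ^ 2 := by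
  rw [Ex_sum, ← Finset.sum_fiberwise_of_maps_to (s := univ.filter fun S => S ∩ A ∈ F) (t := F)
    (g := fun S => S ∩ A) (fun S hS => (Finset.mem_filter.mp hS).2)]
  refine Finset.sum_congr rfl fun R hR => ?_
  have e : (univ.filter fun S => S ∩ A ∈ F).filter (fun S => S ∩ A = R) =
      univ.filter (fun S => S ∩ A = R) := by
    ext S; simp only [Finset.mem_filter, Finset.mem_univ, true_and]
    exact ⟨fun h => h.2, fun h => ⟨h ▸ hR, h⟩⟩
  rw [e]
  simp only [hat_cond h0 h1, sq, Finset.sum_mul_sum]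
  rw [Ex_sum]
  refine Finset.sum_congr rfl fun S hS => ?_
  rw [Ex_sum, Finset.sum_eq_single_of_mem S hS]
  · have : (fun y => hat p f S * chi p (S \ A) y * (hat p f S * chi p (S \ A) y)) =
        fun y => hat p f S * hat p f S * (chi p (S \ A) y * chi p (S \ A) y) := by ext; ring
    rw [this, Ex_mul, Ex_chi_chi h0 h1]; simp
  · intro T hT hne
    have : (fun y => hat p f S * chi p (S \ A) y * (hat p f T * chi p (T \ A) y)) =
        fun y => hat p f S * hat p f T * (chi p (S \ A) y * chi p (T \ A) y) := by ext; ring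
    rw [this, Ex_mul, Ex_chi_chi h0 h1, if_neg, mul_zero]
    intro h
    apply hne
    rw [← Finset.sdiff_union_inter T A, ← Finset.sdiff_union_inter S A, h,
      (Finset.mem_filter.mp hS).2, (Finset.mem_filter.mp hT).2]

def low (X : Finset E) (k : ℕ) : Finset (Finset E) :=
  X.powerset.filter fun R => R ≠ ∅ ∧ R.card ≤ k

def touch (X : Finset E) : Finset (Finset E) := univ.filter fun R => ¬ R ∩ X = ∅

lemma local_bound (h0 : 0 < p) (h1 : p < 1) (F : (E → Bool) → ℝ) (hF : ∀ x, F x = 0 ∨ F x = 1)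
    (X : Finset E) (k : ℕ) (m t : ℝ) (hm : 0 < m) (ht : 0 < t)
    (h : 2 * (2 / sd p) ^ (2 * k) ≤ m * t ^ 3) (hb : m * ∑ R ∈ low X k, hat p F R ^ 2 ≤ 1) :
    ∑ R ∈ low X k, hat p F R ^ 2 ≤ 4 * t * ∑ R ∈ touch X, hat p F R ^ 2 := by
  have hs := sd_pos h0 h1
  have h4 : 1 ≤ 2 / sd p := by rw [le_div_iff₀ hs]; linarith [sd_le h0 h1]
  set b := ∑ R ∈ low X k, hat p F R ^ 2 with hbd
  set τ := ∑ R ∈ touch X, hat p F R ^ 2 with hτ
  have b0 : 0 ≤ b := Finset.sum_nonneg fun _ _ => sq_nonneg _
  set G : (E → Bool) → ℝ := fun x => ∑ R ∈ low X k, hat p F R * chi p R x with hG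
  set L : (E → Bool) → ℝ := fun x => ∑ R ∈ touch X, hat p F R * chi p R x with hL
  set q : (E → Bool) → ℝ :=
    fun x => ∑ R ∈ univ.filter (fun R => R ∩ X = ∅), hat p F R * chi p R x with hq
  have hFq : ∀ x, F x = q x + L x := by
    intro x; rw [inversion h0 h1 F x]
    exact (Finset.sum_filter_add_sum_filter_not _ _ _).symm
  have hq1 : ∀ x, q x = Ex p fun z => F (X.piecewise z x) := by
    intro x
    have := hat_cond h0 h1 F X ∅ x
    simp only [hat, chi, Finset.prod_empty, mul_one] at this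
    rw [this]
    refine Finset.sum_congr rfl fun S hS => ?_
    rw [Finset.sdiff_eq_self_of_disjoint (Finset.disjoint_iff_inter_eq_empty.mpr
      (Finset.mem_filter.mp hS).2)]; rfl
  have q0 : ∀ x, 0 ≤ q x := by
    intro x; rw [hq1, ← Ex_const (E := E) (p := p) 0]
    exact Ex_mono h0.le h1.le fun z => by rcases hF (X.piecewise z x) with h | h <;> simp [h]
  have q1 : ∀ x, q x ≤ 1 := by
    intro x; rw [hq1, ← Ex_const (E := E) (p := p) 1]
    exact Ex_mono h0.le h1.le fun z => by rcases hF (X.piecewise z x) with h | h <;> simp [h]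
  have e1 : Ex p (fun x => L x * G x) = b := by
    rw [Ex_sum_sum h0 h1, Finset.inter_eq_left.mpr]
    · simp only [hbd, sq]
    · intro R hR
      simp only [low, touch, Finset.mem_filter, Finset.mem_powerset, Finset.mem_univ, true_and] at *
      rw [Finset.inter_eq_left.mpr hR.1]; exact hR.2.1
  have e2 : Ex p (fun x => L x * L x) = τ := by
    rw [Ex_sum_sum h0 h1, Finset.inter_self]; simp only [hτ, sq]
  have e3 : Ex p (fun x => L x * q x) = 0 := by
    rw [Ex_sum_sum h0 h1]
    refine Finset.sum_eq_zero fun R hR => ?_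
    simp only [touch, Finset.mem_inter, Finset.mem_filter] at hR
    exact absurd hR.1.2 hR.2.2
  have e4 : Ex p L = 0 := by
    have := hat_sum h0 h1 (touch X) (hat p F) ∅
    rw [if_neg (by simp [touch])] at this
    rw [← this, hat]; congr 1; ext x; simp [hL, chi]
  have e5 : Ex p (fun x => G x ^ 4) ≤ ((2 / sd p) ^ k * b) ^ 2 := by
    have := bonami h0 h1 X fun S => if S ≠ ∅ ∧ S.card ≤ k then hat p F S else 0
    have a1 : ∀ x, ∑ S ∈ X.powerset, (if S ≠ ∅ ∧ S.card ≤ k then hat p F S else 0) * chi p S x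
        = G x := by
      intro x; simp only [hG, low, Finset.sum_filter, ite_mul, zero_mul]
    simp only [a1] at this
    refine this.trans (pow_le_pow_left₀ (Finset.sum_nonneg fun _ _ => by positivity) ?_ 2)
    rw [hbd, low, Finset.sum_filter, Finset.mul_sum]
    refine Finset.sum_le_sum fun S _ => ?_
    split_ifs with hS
    · exact mul_le_mul_of_nonneg_right (pow_le_pow_right₀ h4 hS.2) (sq_nonneg _)
    · simp
  have pt : ∀ x, L x * G x ≤
      t * (2 * (L x * L x) - L x + 2 * (L x * q x)) + 1 / t ^ 3 * G x ^ 4 := by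
    intro x
    have a := q0 x; have a' := q1 x
    have hLx : L x = F x - q x := by rw [hFq x]; ring
    have c1 : |L x| = 2 * (L x * L x) - L x + 2 * (L x * q x) := by
      rw [hLx]; rcases hF x with h | h <;> rw [h]
      · rw [abs_of_nonpos (by linarith)]; ring
      · rw [abs_of_nonneg (by linarith)]; ring
    have c2 : |L x| ≤ 1 := by
      rw [hLx]; rcases hF x with h | h <;> rw [h, abs_le] <;> constructor <;> linarith
    have c3 : |G x| ≤ t + 1 / t ^ 3 * G x ^ 4 := by
      have g4 : G x ^ 4 = |G x| ^ 4 := by rw [← abs_pow]; exact (abs_of_nonneg (by positivity)).symm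
      by_cases hc : |G x| ≤ t
      · have : 0 ≤ 1 / t ^ 3 * G x ^ 4 := by positivity
        linarith
      · push Not at hc
        have : |G x| ≤ 1 / t ^ 3 * G x ^ 4 := by
          rw [g4, one_div, inv_mul_eq_div, le_div_iff₀ (by positivity), pow_succ' _ 3]
          gcongr
        linarith
    rw [← c1]
    have c4 : 0 ≤ 1 / t ^ 3 * G x ^ 4 := by positivity
    calc L x * G x ≤ |L x| * |G x| := by rw [← abs_mul]; exact le_abs_self _
      _ ≤ |L x| * (t + 1 / t ^ 3 * G x ^ 4) := by gcongr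
      _ ≤ _ := by nlinarith [abs_nonneg (L x)]
  have tot := Ex_mono h0.le h1.le pt
  rw [e1, Ex_add, Ex_mul, Ex_mul, Ex_add, Ex_sub, Ex_mul, Ex_mul, e2, e3, e4] at tot
  have k1 : 1 / t ^ 3 * (Ex p fun x => G x ^ 4) ≤ b / 2 := by
    rw [one_div, inv_mul_eq_div, div_le_iff₀ (by positivity)]
    refine e5.trans ?_
    rw [mul_pow, ← pow_mul, mul_comm k 2]
    have : (2 / sd p) ^ (2 * k) * b ^ 2 ≤ m * t ^ 3 / 2 * b ^ 2 := by gcongr; linarith
    have : m * b * (b * t ^ 3) ≤ 1 * (b * t ^ 3) := by gcongr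
    nlinarith
  linarith

lemma Ex_comp (τ : E ≃ E) (g : (E → Bool) → ℝ) : Ex p (fun x => g (x ∘ τ)) = Ex p g := by
  unfold Ex
  refine Fintype.sum_equiv (τ.symm.arrowCongr (Equiv.refl _)) _ _ fun x => ?_
  have : (τ.symm.arrowCongr (Equiv.refl Bool)) x = x ∘ τ := by ext e; simp
  rw [this]; congr 1
  exact (Equiv.prod_comp τ fun e => wt p (x e)).symm

lemma hat_map (τ : E ≃ E) (F : (E → Bool) → ℝ) (hF : ∀ x, F (x ∘ τ) = F x) (R : Finset E) :
    hat p F (R.map τ.toEmbedding) = hat p F R := by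
  unfold hat
  rw [← Ex_comp τ fun x => F x * chi p R x]
  congr 1; ext x; rw [hF]; congr 1
  unfold chi; rw [Finset.prod_map]; rfl

lemma sym_bound (h0 : 0 < p) (h1 : p < 1) (f : (E → Bool) → ℝ) (hf : ∀ x, f x = 0 ∨ f x = 1)
    {ι : Type} [DecidableEq ι] (M : Finset ι) (A : Finset E) (X : ι → Finset E) (v : ι)
    (hd : ∀ a ∈ M, ∀ b ∈ M, a ≠ b → Disjoint (X a) (X b))
    (hτ : ∀ a ∈ M, ∃ τ : E ≃ E, (∀ x, f (x ∘ τ) = f x) ∧ (∀ e ∉ A, τ e = e) ∧ (∀ e ∈ A, τ e ∈ A) ∧
      ∀ e ∈ X v, τ e ∈ X a)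
    (k : ℕ) (t : ℝ) (hm : 0 < M.card) (ht : 0 < t)
    (h : 2 * (2 / sd p) ^ (2 * k) ≤ M.card * t ^ 3) :
    ∑ S ∈ univ.filter (fun S => S ∩ A ∈ low (X v) k), hat p f S ^ 2 ≤
      4 * t * ∑ S ∈ univ.filter (fun S => S ∩ A ∈ touch (X v)), hat p f S ^ 2 := by
  rw [← Ex_hat_cond h0 h1, ← Ex_hat_cond h0 h1, ← Ex_mul]
  refine Ex_mono h0.le h1.le fun y => ?_
  set F : (E → Bool) → ℝ := fun x => f (A.piecewise x y) with hF
  have hFb : ∀ x, F x = 0 ∨ F x = 1 := fun x => hf _
  refine local_bound h0 h1 F hFb (X v) k M.card t (by exact_mod_cast hm) ht h ?_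
  have s1 : ∀ a ∈ M, ∑ R ∈ low (X v) k, hat p F R ^ 2 ≤ ∑ R ∈ low (X a) k, hat p F R ^ 2 := by
    intro a ha
    obtain ⟨τ, t1, t2, t3, t4⟩ := hτ a ha
    have hinv : ∀ x, F (x ∘ τ) = F x := by
      intro x
      simp only [hF]
      rw [← t1 (A.piecewise x y)]; congr 1; ext e
      by_cases he : e ∈ A
      · simp [Finset.piecewise_eq_of_mem _ _ _ he, Finset.piecewise_eq_of_mem _ _ _ (t3 e he)]
      · rw [Function.comp_apply, t2 e he, Finset.piecewise_eq_of_notMem _ _ _ he,
          Finset.piecewise_eq_of_notMem _ _ _ he]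
    calc _ = ∑ R ∈ (low (X v) k).map (Finset.mapEmbedding τ.toEmbedding).toEmbedding,
          hat p F R ^ 2 := by
          rw [Finset.sum_map]
          exact Finset.sum_congr rfl fun R _ => by rw [← hat_map τ F hinv R]; rfl
      _ ≤ _ := by
          refine Finset.sum_le_sum_of_subset_of_nonneg ?_ fun _ _ _ => sq_nonneg _
          intro R hR
          obtain ⟨R', hR', rfl⟩ := Finset.mem_map.mp hR
          simp only [low, Finset.mem_filter, Finset.mem_powerset] at hR' ⊢
          refine ⟨fun e he => ?_, fun h => hR'.2.1 (Finset.map_eq_empty.mp h), ?_⟩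
          · obtain ⟨e', he', rfl⟩ := Finset.mem_map.mp he
            exact t4 e' (hR'.1 he')
          · exact (Finset.card_map _).le.trans hR'.2.2
  have s2 : ∑ a ∈ M, ∑ R ∈ low (X a) k, hat p F R ^ 2 ≤ 1 := by
    rw [← Finset.sum_biUnion]
    · refine (Finset.sum_le_sum_of_subset_of_nonneg (Finset.subset_univ _)
        fun _ _ _ => sq_nonneg _).trans ?_
      rw [← parseval h0 h1, ← Ex_const (E := E) (p := p) 1]
      exact Ex_mono h0.le h1.le fun x => by rcases hFb x with h | h <;> simp [h]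
    · intro a ha b hb hab
      refine Finset.disjoint_left.mpr fun R h1 h2 => ?_
      simp only [low, Finset.mem_filter, Finset.mem_powerset] at h1 h2
      obtain ⟨e, he⟩ := Finset.nonempty_iff_ne_empty.mpr h1.2.1
      exact Finset.disjoint_left.mp (hd a ha b hb hab) (h1.1 he) (h2.1 he)
  refine le_trans ?_ s2
  rw [← nsmul_eq_mul, ← Finset.sum_const]
  exact Finset.sum_le_sum s1

/-- Russo's formula -/
lemma russo (f : (E → Bool) → ℝ) (p : ℝ) : HasDerivAt (fun q => Ex q f)
    (∑ e, Ex p (fun x => f (Function.update x e true) - f (Function.update x e false))) p := by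
  have hw : ∀ b, HasDerivAt (fun q => wt q b) (if b = true then 1 else -1) p := by
    intro b; cases b
    · simpa [wt] using (hasDerivAt_id p).const_sub 1
    · simpa [wt] using hasDerivAt_id' p
  have h1 : ∀ x : E → Bool, HasDerivAt (fun q => W q x * f x)
      ((∑ e, (∏ j ∈ univ.erase e, wt p (x j)) • (if x e = true then (1:ℝ) else -1)) * f x) p :=
    fun x => (HasDerivAt.fun_finsetProd (u := univ) fun e _ => hw (x e)).mul_const _
  have h2 := HasDerivAt.fun_sum (u := univ) fun x _ => h1 x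
  refine h2.congr_deriv ?_
  simp only [Finset.sum_mul]
  rw [Finset.sum_comm]
  refine Finset.sum_congr rfl fun e _ => ?_
  have hW : ∀ x : E → Bool, W p x = wt p (x e) * ∏ j ∈ univ.erase e, wt p (x j) := fun x =>
    (Finset.mul_prod_erase _ _ (Finset.mem_univ e)).symm
  let ι : (E → Bool) ≃ (E → Bool) := Function.Involutive.toPerm
    (fun x => Function.update x e (!x e)) fun x => by simp
  have e1 : ∀ x : E → Bool, ∏ j ∈ univ.erase e, wt p (ι x j) = ∏ j ∈ univ.erase e, wt p (x j) :=
    fun x => Finset.prod_congr rfl fun j hj => by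
      show wt p (Function.update x e (!x e) j) = _
      rw [Function.update_of_ne (Finset.ne_of_mem_erase hj)]
  have two : ∀ a b : (E → Bool) → ℝ, (∀ x, a x + a (ι x) = b x + b (ι x)) → ∑ x, a x = ∑ x, b x := by
    intro a b h
    have := Finset.sum_congr rfl fun x (_ : x ∈ univ) => h x
    rw [Finset.sum_add_distrib, Finset.sum_add_distrib, Equiv.sum_comp ι a, Equiv.sum_comp ι b] at this
    linarith
  refine two _ _ fun x => ?_
  have i1 : ι x e = !x e := Function.update_self _ _ _
  have i2 : ∀ b, Function.update (ι x) e b = Function.update x e b := fun b =>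
    Function.update_idem _ _ _
  have i3 : ι x = Function.update x e (!x e) := rfl
  have i4 : f x = f (Function.update x e (x e)) := by rw [Function.update_eq_self]
  rw [hW x, hW (ι x), e1, i1]
  simp only [i2]
  rw [i3, i4]
  cases x e <;> simp [wt] <;> ring

lemma influence_eq (h0 : 0 < p) (h1 : p < 1) (f : (E → Bool) → ℝ) (hf : ∀ x, f x = 0 ∨ f x = 1)
    (hm : ∀ x e, f (Function.update x e false) ≤ f (Function.update x e true)) :
    ∑ S : Finset E, S.card * hat p f S ^ 2 = sd p ^ 2 *
      ∑ e, Ex p (fun x => f (Function.update x e true) - f (Function.update x e false)) := by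
  have hs := sd_pos h0 h1
  have a1 : ∑ S : Finset E, S.card * hat p f S ^ 2 =
      ∑ e, ∑ S ∈ univ.filter (fun S : Finset E => e ∈ S), hat p f S ^ 2 := by
    simp only [Finset.sum_filter]
    rw [Finset.sum_comm]
    refine Finset.sum_congr rfl fun S _ => ?_
    rw [Finset.sum_ite_mem, Finset.univ_inter, Finset.sum_const, nsmul_eq_mul]
  rw [a1, Finset.mul_sum]
  refine Finset.sum_congr rfl fun e _ => ?_
  have a2 := Ex_hat_cond h0 h1 f {e} {{e}}
  have a3 : (univ.filter fun S : Finset E => S ∩ {e} ∈ ({{e}} : Finset (Finset E))) =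
      univ.filter (fun S : Finset E => e ∈ S) := by
    ext S; simp [Finset.inter_eq_right]
  rw [a3] at a2
  rw [← a2, ← Ex_mul]
  congr 1; ext y
  rw [Finset.sum_singleton, hat, Ex_split e]
  have a4 : ∀ (x : E → Bool) b, ({e} : Finset E).piecewise (Function.update x e b) y =
      Function.update y e b := by
    intro x b; rw [Finset.piecewise_singleton, Function.update_self]
  simp only [a4, chi, Finset.prod_singleton, Function.update_self, Ex_const]
  have hq := sd_sq h0 h1
  have := hm y e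
  simp only [ph]
  rcases hf (Function.update y e true) with a | a <;> rcases hf (Function.update y e false) with b | b <;>
    rw [a, b] at this ⊢
  · simp
  · linarith
  · simp; field_simp; rw [show sd p ^ 4 = (sd p ^ 2) ^ 2 by ring, hq]; ring
  · simp; ring

end Vale.Agent.P063
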