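import Mathlib

namespace Vale.Agent.P063

/-- The possible edges: `r`-element subsets of the `n` vertices. -/
abbrev Edge (n r : ℕ) := {e : Finset (Fin n) // e.card = r}

/-- Action of a vertex permutation on edges. -/
def permEdge {n r : ℕ} (σ : Equiv.Perm (Fin n)) (e : Edge n r) : Edge n r :=
  ⟨e.1.map σ.toEmbedding, (Finset.card_map _).trans e.2⟩

/-- Invariance under all vertex permutations. -/
def IsProperty {n r : ℕ} (P : Finset (Edge n r → Bool)) : Prop :=
  ∀ (σ : Equiv.Perm (Fin n)) (x : Edge n r → Bool), x ∈ P → (fun e => x (permEdge σ e)) ∈ P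

/-- Adding edges preserves membership. -/
def Increasing {n r : ℕ} (P : Finset (Edge n r → Bool)) : Prop :=
  ∀ x y : Edge n r → Bool, (∀ e, x e = true → y e = true) → x ∈ P → y ∈ P

/-- Probability of `P` when each edge is present independently with probability `p`. -/
noncomputable def mu {n r : ℕ} (P : Finset (Edge n r → Bool)) (p : ℝ) : ℝ :=
  ∑ x ∈ P, ∏ e, if x e = true then p else 1 - p

/-- `p_a(P)`. -/
noncomputable def pc {n r : ℕ} (P : Finset (Edge n r → Bool)) (a : ℝ) : ℝ :=
  sInf {p : ℝ | p ∈ Set.Icc (0 : ℝ) 1 ∧ a ≤ mu P p}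

/-- Threshold width `w_ε(P)`. -/
noncomputable def width {n r : ℕ} (P : Finset (Edge n r → Bool)) (ε : ℝ) : ℝ :=
  pc P (1 - ε) - pc P ε

end Vale.Agent.P063
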