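import Vale.Agent.P063.Hyper

namespace Vale.Agent.P063

open Finset

lemma rpow_le_sq {a z α : ℝ} (ha : 0 ≤ a) (haz : a ≤ z) (hz : 1 ≤ z) (h0 : 0 ≤ α) (h2 : α ≤ 2) :
    a ^ α ≤ z ^ 2 := by
  calc a ^ α ≤ z ^ α := Real.rpow_le_rpow ha haz h0
    _ ≤ z ^ (2:ℝ) := Real.rpow_le_rpow_of_exponent_le hz h2
    _ = z ^ 2 := Real.rpow_two z

set_option maxHeartbeats 2000000 in
lemma main_ineq {n r : ℕ} (hr : 2 ≤ r) (hn : r ≤ n) {p : ℝ} (h0 : 0 < p) (h1 : p < 1)
    (f : (Edge n r → Bool) → ℝ) (hf : ∀ x, f x = 0 ∨ f x = 1)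
    (hinv : ∀ σ x, f (x ∘ permE σ) = f x) (D : ℝ)
    (hD : ∑ S : Finset (Edge n r), S.card * hat p f S ^ 2 = sd p ^ 2 * D) :
    Ex p f * (1 - Ex p f) * Real.log n ^ ((r:ℝ) / (r - 1)) ≤ (768 * r) ^ 2 * D := by
  have hs := sd_pos h0 h1
  have hs2 := sd_le h0 h1
  set s := sd p with hsd
  set I := ∑ S : Finset (Edge n r), S.card * hat p f S ^ 2 with hI
  have I0 : 0 ≤ I := Finset.sum_nonneg fun _ _ => by positivity
  have D0 : 0 ≤ D := by
    by_contra h; push Not at h
    have : s ^ 2 * D < 0 := mul_neg_of_pos_of_neg (by positivity) h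
    linarith
  set V := Ex p f * (1 - Ex p f) with hV
  have poin : V ≤ I := by
    have := var_le h0 h1 f hf 0
    rw [Finset.sum_eq_zero (fun S hS => by
      have := (Finset.mem_filter.mp hS).2
      exact absurd (Finset.card_eq_zero.mp (by omega)) this.1)] at this
    simpa using this
  have vl := fun K => var_le h0 h1 f hf K
  have lw := fun m K k t => low_weight h0 h1 (by omega) f hf hinv m K k t
  simp only [← hV, ← hI, ← hsd] at vl lw
  clear_value V I s
  have rR : (2:ℝ) ≤ r := by exact_mod_cast hr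
  have nR : (2:ℝ) ≤ n := by exact_mod_cast hr.trans hn
  set l := Real.log n with hl
  have l0 : 0 < l := Real.log_pos (by linarith)
  set α : ℝ := r / (r - 1) with hα
  have α0 : 0 ≤ α := div_nonneg (by linarith) (by linarith)
  have α2 : α ≤ 2 := by rw [hα, div_le_iff₀ (by linarith)]; linarith
  have L0 : 0 < l ^ α := Real.rpow_pos_of_pos l0 _
  have σ4 : 4 ≤ 2 / s := by rw [le_div_iff₀ hs]; linarith
  set lam := Real.log (2 / s) with hlam
  have lam1 : 1 ≤ lam := by
    rw [hlam, Real.le_log_iff_exp_le (by positivity)]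
    have := Real.exp_one_lt_d9; linarith
  have slam : s * lam ≤ 2 := by
    have : lam ≤ 2 / s := (Real.log_le_sub_one_of_pos (by positivity)).trans (by linarith)
    calc s * lam ≤ s * (2 / s) := by gcongr
      _ = 2 := by field_simp
  have ss : s ^ 2 ≤ 1 := by nlinarith
  have fin : ∀ c : ℝ, 0 ≤ c → c * s ≤ 768 * r → l ^ α ≤ c ^ 2 → V * l ^ α ≤ (768 * r) ^ 2 * D := by
    intro c c0 hc hlc
    calc V * l ^ α ≤ I * c ^ 2 := mul_le_mul poin hlc L0.le I0
      _ = (c * s) ^ 2 * D := by rw [hD]; ring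
      _ ≤ _ := by gcongr
  by_cases c1 : l ≤ 768 * r
  · exact fin (768 * r) (by positivity) (by nlinarith) (rpow_le_sq l0.le c1 (by linarith) α0 α2)
  by_cases c2 : l ≤ 8 * r * lam
  · exact fin (8 * r * lam) (by positivity) (by nlinarith)
      (rpow_le_sq l0.le c2 (by nlinarith) α0 α2)
  push Not at c1 c2
  set k := ⌊l / (8 * lam)⌋₊ with hk
  have k1 : (k:ℝ) ≤ l / (8 * lam) := Nat.floor_le (by positivity)
  have k2 : l / (8 * lam) < k + 1 := Nat.lt_floor_add_one _
  have k3 : r ≤ k := Nat.le_floor (by rw [le_div_iff₀ (by positivity)]; linarith)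
  have k3R : (r:ℝ) ≤ k := by exact_mod_cast k3
  have k4 : l ≤ 16 * r * lam * (k / r) := by
    rw [div_lt_iff₀ (by positivity)] at k2
    have : 16 * r * lam * (k / r) = 16 * lam * k := by field_simp
    rw [this]; nlinarith
  have k5 : (k:ℝ) ≤ l := by
    rw [le_div_iff₀ (by positivity)] at k1
    have : (0:ℝ) ≤ k := by positivity
    nlinarith
  have kr1 : (1:ℝ) ≤ k / r := by rw [le_div_iff₀ (by positivity)]; linarith
  set K := ⌊((k:ℝ) / r) ^ α⌋₊ with hK
  have K1 : (K:ℝ) ≤ ((k:ℝ) / r) ^ α := Nat.floor_le (by positivity)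
  have K2 : ((k:ℝ) / r) ^ α < K + 1 := Nat.lt_floor_add_one _
  have K3 : 1 ≤ K := Nat.le_floor (by exact_mod_cast Real.one_le_rpow kr1 α0)
  have K4 : r ^ r * K ^ (r - 1) ≤ k ^ r := by
    have : (K:ℝ) ^ (r - 1) ≤ ((k:ℝ) / r) ^ r := by
      calc (K:ℝ) ^ (r - 1) ≤ (((k:ℝ) / r) ^ α) ^ (r - 1) := by gcongr
        _ = _ := by
          rw [← Real.rpow_natCast, ← Real.rpow_mul (by positivity), ← Real.rpow_natCast]
          congr 1
          rw [Nat.cast_sub (by omega), hα]
          have : (r:ℝ) - 1 ≠ 0 := by linarith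
          push_cast; field_simp
    rw [div_pow, le_div_iff₀ (by positivity), mul_comm] at this
    exact_mod_cast this
  have K5 : (K:ℝ) ≤ l ^ 2 := K1.trans (rpow_le_sq (by positivity)
    ((div_le_self (by positivity) (by linarith)).trans k5) (by linarith) α0 α2)
  set w := Real.exp (l / 4) with hw
  have w4 : w ^ 4 = n := by
    rw [hw, ← Real.exp_nat_mul, ← Real.exp_log (show (0:ℝ) < n by linarith)]; congr 1
    push_cast; ring
  have w1 : 2 * r * l ^ 2 ≤ w := by
    have := Real.pow_div_factorial_le_exp (l / 4) (by positivity) 3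
    have e : (l / 4) ^ 3 / (Nat.factorial 3 : ℕ) = l / 384 * l ^ 2 := by
      simp [Nat.factorial]; ring
    rw [e] at this
    refine le_trans ?_ this
    gcongr; linarith
  have w3 : 3 ≤ w := by nlinarith
  set m := Nat.sqrt n with hm
  have m1 : (m:ℝ) ≤ w ^ 2 := by
    refine le_of_sq_le_sq ?_ (by positivity) |>.trans le_rfl
    rw [← pow_mul, w4]; exact_mod_cast Nat.sqrt_le' n
  have m2 : w ^ 2 ≤ m + 1 := by
    refine le_of_sq_le_sq ?_ (by positivity) |>.trans le_rfl
    rw [← pow_mul, w4]; exact_mod_cast (Nat.lt_succ_sqrt' n).le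
  have hnn : 2 * (r * K) * (m + r * K) ≤ n - 1 := by
    have a : 2 * ((r:ℝ) * K) ≤ w := by nlinarith
    have a0 : (0:ℝ) ≤ r * K := by positivity
    have b : 2 * ((r:ℝ) * K) * (m + r * K) ≤ w * (w ^ 2 + w) := by gcongr; linarith
    have c : w * (w ^ 2 + w) + 1 ≤ w ^ 4 := by
      have : 0 ≤ w ^ 3 * (w - 3) := by have : 0 ≤ w - 3 := by linarith
                                       positivity
      nlinarith
    have d : 2 * (r * K) * (m + r * K) + 1 ≤ n := by
      have : 2 * ((r:ℝ) * K) * (m + r * K) + 1 ≤ n := by linarith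
      exact_mod_cast this
    omega
  set t := 2 * Real.exp (-(l / 12)) with ht
  have t3 : 2 * (2 / s) ^ (2 * k) ≤ (m + 1) * t ^ 3 := by
    have a : (2 / s) ^ (2 * k) ≤ w := by
      rw [← Real.exp_log (show 0 < 2 / s by positivity), ← Real.exp_nat_mul]
      apply Real.exp_le_exp.mpr
      rw [le_div_iff₀ (by positivity)] at k1
      push_cast; linarith
    have b : w ^ 2 * t ^ 3 = 8 * w := by
      rw [ht, mul_pow, ← Real.exp_nat_mul, hw, ← Real.exp_nat_mul, mul_left_comm, ← Real.exp_add]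
      congr 1
      · norm_num
      · congr 1; push_cast; ring
    have : w ^ 2 * t ^ 3 ≤ (m + 1) * t ^ 3 := by gcongr
    linarith
  have lw := lw m K k t (by positivity) t3 K3 K4 hnn
  have vl := vl K
  have b1 : t * l ^ α ≤ 576 := by
    have a := Real.pow_div_factorial_le_exp (l / 12) (by positivity) 2
    have e : (l / 12) ^ 2 / (Nat.factorial 2 : ℕ) = l ^ 2 / 288 := by simp [Nat.factorial]; ring
    rw [e, div_le_iff₀ (by norm_num)] at a
    have b := rpow_le_sq l0.le le_rfl (by linarith) α0 α2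
    have c : Real.exp (-(l / 12)) * Real.exp (l / 12) = 1 := by rw [← Real.exp_add]; simp
    calc t * l ^ α ≤ t * (Real.exp (l / 12) * 288) := by gcongr; linarith
      _ = 576 := by rw [ht]; linear_combination 576 * c
  have b2 : 1 / (K + 1) * l ^ α ≤ (16 * r * lam) ^ 2 := by
    rw [one_div, inv_mul_eq_div, div_le_iff₀ (by positivity)]
    calc l ^ α ≤ (16 * r * lam * (k / r)) ^ α := Real.rpow_le_rpow l0.le k4 α0
      _ = (16 * r * lam) ^ α * (k / r) ^ α := Real.mul_rpow (by positivity) (by positivity)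
      _ ≤ _ := mul_le_mul (rpow_le_sq (by positivity) le_rfl (by nlinarith) α0 α2) K2.le
          (by positivity) (by positivity)
  calc V * l ^ α ≤ (8 * t * r * I + 1 / (K + 1) * I) * l ^ α := by gcongr; linarith
    _ = (8 * r * (t * l ^ α) + 1 / (K + 1) * l ^ α) * I := by ring
    _ ≤ (8 * r * 576 + (16 * r * lam) ^ 2) * I := by gcongr
    _ = (8 * r * 576 * s ^ 2 + (16 * r) ^ 2 * (s * lam) ^ 2) * D := by rw [hD]; ring
    _ ≤ (8 * r * 576 * 1 + (16 * r) ^ 2 * 2 ^ 2) * D := by gcongr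
    _ ≤ _ := by gcongr; nlinarith

lemma width_abs (μ D : ℝ → ℝ) (c ε : ℝ) (hc : 0 < c) (hε : 0 < ε) (hε2 : ε < 1 / 2)
    (hd : ∀ p, HasDerivAt μ (D p) p) (h01 : ∀ p, 0 ≤ p → p ≤ 1 → 0 ≤ μ p ∧ μ p ≤ 1)
    (hD : ∀ p, 0 < p → p < 1 → μ p * (1 - μ p) ≤ c * D p) (h1 : μ 1 = 1) :
    sInf {p : ℝ | p ∈ Set.Icc (0 : ℝ) 1 ∧ 1 - ε ≤ μ p} -
      sInf {p : ℝ | p ∈ Set.Icc (0 : ℝ) 1 ∧ ε ≤ μ p} ≤ 2 * c / ε := by
  have hcont : Continuous μ := continuous_iff_continuousAt.mpr fun p => (hd p).continuousAt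
  have mono : ∀ a b, 0 ≤ a → a ≤ b → b ≤ 1 → μ a ≤ μ b := by
    intro a b ha hab hb
    rcases hab.eq_or_lt with rfl | hab
    · exact le_rfl
    obtain ⟨ξ, hξ, e⟩ := exists_hasDerivAt_eq_slope μ D hab hcont.continuousOn fun x _ => hd x
    have h1 := hD ξ (by linarith [hξ.1]) (by linarith [hξ.2])
    have h2 := h01 ξ (by linarith [hξ.1]) (by linarith [hξ.2])
    have h3 : 0 ≤ D ξ := by
      by_contra h; push Not at h
      have := mul_neg_of_pos_of_neg hc h
      nlinarith [h2.1, h2.2]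
    rw [e, le_div_iff₀ (by linarith)] at h3; linarith
  set p0 := sInf {p : ℝ | p ∈ Set.Icc (0 : ℝ) 1 ∧ ε ≤ μ p} with hp0
  have m0 : p0 ∈ {p : ℝ | p ∈ Set.Icc (0 : ℝ) 1 ∧ ε ≤ μ p} := by
    refine IsClosed.csInf_mem ?_ ⟨1, ⟨by simp, by rw [h1]; linarith⟩⟩ ⟨0, fun p hp => hp.1.1⟩
    exact isClosed_Icc.inter (isClosed_le continuous_const hcont)
  have bd : BddBelow {p : ℝ | p ∈ Set.Icc (0 : ℝ) 1 ∧ 1 - ε ≤ μ p} := ⟨0, fun p hp => hp.1.1⟩
  have δ0 : 0 < 2 * c / ε := by positivity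
  obtain ⟨⟨a0, a1⟩, a2⟩ := m0
  by_cases h : 1 ≤ p0 + 2 * c / ε
  · have := csInf_le bd (a := 1) ⟨by simp, by rw [h1]; linarith⟩
    linarith
  · push Not at h
    have : 1 - ε ≤ μ (p0 + 2 * c / ε) := by
      by_contra hcon
      push Not at hcon
      obtain ⟨ξ, hξ, e⟩ := exists_hasDerivAt_eq_slope μ D (show p0 < p0 + 2 * c / ε by linarith)
        hcont.continuousOn fun x _ => hd x
      have b1 := mono p0 ξ a0 hξ.1.le (by linarith [hξ.2])
      have b2 := mono ξ _ (by linarith [hξ.1]) hξ.2.le h.le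
      have b3 := hD ξ (by linarith [hξ.1]) (by linarith [hξ.2])
      have b4 : ε / 2 ≤ μ ξ * (1 - μ ξ) := by nlinarith
      rw [e, add_sub_cancel_left] at b3
      have b5 : c * ((μ (p0 + 2 * c / ε) - μ p0) / (2 * c / ε)) =
          ε / 2 * (μ (p0 + 2 * c / ε) - μ p0) := by field_simp
      rw [b5] at b3
      nlinarith
    have := csInf_le bd (a := p0 + 2 * c / ε) ⟨⟨by linarith, h.le⟩, this⟩
    linarith

theorem width_le {n r : ℕ} (hr : 2 ≤ r) (hn : r ≤ n) {ε : ℝ} (hε : 0 < ε) (hε2 : ε < 1 / 2)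
    (P : Finset (Edge n r → Bool)) (hP : IsProperty P) (hI : Increasing P) (hne : P.Nonempty) :
    width P ε ≤ 2 * (768 * r) ^ 2 / ε * Real.log n ^ (-((r:ℝ) / (r - 1))) := by
  set f : (Edge n r → Bool) → ℝ := fun x => if x ∈ P then 1 else 0 with hfd
  have hf : ∀ x, f x = 0 ∨ f x = 1 := fun x => by simp only [hfd]; split_ifs <;> simp
  have hmu : mu P = fun q => Ex q f := by
    ext q; simp only [mu, Ex, hfd, mul_ite, mul_one, mul_zero]
    rw [Finset.sum_ite_mem, Finset.univ_inter]; rfl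
  have hinv : ∀ σ x, f (x ∘ permE σ) = f x := by
    intro σ x
    have : x ∘ permE σ ∈ P ↔ x ∈ P := by
      refine ⟨fun h => ?_, fun h => hP σ x h⟩
      have := hP σ.symm _ h
      have e : (fun e => (x ∘ permE σ) (permEdge σ.symm e)) = x := by
        ext e; exact congrArg x ((permE σ).apply_symm_apply e)
      rwa [e] at this
    simp only [hfd, this]
  have hmon : ∀ x e, f (Function.update x e false) ≤ f (Function.update x e true) := by
    intro x e
    simp only [hfd]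
    by_cases h : Function.update x e false ∈ P
    · rw [if_pos h, if_pos (hI _ _ (fun j hj => ?_) h)]
      by_cases hje : j = e
      · subst hje; simp
      · rwa [Function.update_of_ne hje] at hj ⊢
    · rw [if_neg h]; split_ifs <;> norm_num
  have l0 : 0 < Real.log n := Real.log_pos (by exact_mod_cast (by omega : 1 < n))
  have L0 : 0 < Real.log n ^ ((r:ℝ) / (r - 1)) := Real.rpow_pos_of_pos l0 _
  have r0 : (0:ℝ) < r := by exact_mod_cast (by omega : 0 < r)
  have := width_abs (fun q => Ex q f) _ ((768 * r) ^ 2 / Real.log n ^ ((r:ℝ) / (r - 1))) ε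
    (by positivity) hε hε2 (russo f) (fun q a b => ⟨?_, ?_⟩) (fun q a b => ?_) ?_
  · rw [width, pc, pc, hmu, Real.rpow_neg l0.le]
    refine this.trans (le_of_eq ?_); field_simp
  · rw [← Ex_const (E := Edge n r) (p := q) 0]
    exact Ex_mono a b fun x => by rcases hf x with h | h <;> simp [h]
  · rw [← Ex_const (E := Edge n r) (p := q) 1]
    exact Ex_mono a b fun x => by rcases hf x with h | h <;> simp [h]
  · rw [div_mul_eq_mul_div, le_div_iff₀ L0]
    exact main_ineq hr hn a b f hf hinv _ (influence_eq a b f hf hmon)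
  · obtain ⟨x, hx⟩ := hne
    have h1 : (fun _ => true) ∈ P := hI x _ (fun _ _ => rfl) hx
    show ∑ y, W 1 y * f y = 1
    rw [Finset.sum_eq_single (fun _ => true)]
    · simp [W, wt, hfd, h1]
    · intro y _ hy
      obtain ⟨e, he⟩ := Function.ne_iff.mp hy
      rw [W, Finset.prod_eq_zero (Finset.mem_univ e), zero_mul]
      simp only [wt]; rw [if_neg he]; ring
    · simp

end Vale.Agent.P063
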