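import Mathlib

namespace Vale.Agent.P063

open Finset

set_option linter.unusedSectionVars false

variable {E : Type} [Fintype E] [DecidableEq E]

noncomputable def wt (p : ℝ) (b : Bool) : ℝ := if b = true then p else 1 - p
noncomputable def W (p : ℝ) (x : E → Bool) : ℝ := ∏ e, wt p (x e)
noncomputable def Ex (p : ℝ) (g : (E → Bool) → ℝ) : ℝ := ∑ x, W p x * g x
noncomputable def sd (p : ℝ) : ℝ := √(p * (1 - p))
noncomputable def ph (p : ℝ) (b : Bool) : ℝ := ((if b = true then 1 else 0) - p) / sd p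
noncomputable def chi (p : ℝ) (S : Finset E) (x : E → Bool) : ℝ := ∏ e ∈ S, ph p (x e)
noncomputable def hat (p : ℝ) (f : (E → Bool) → ℝ) (S : Finset E) : ℝ :=
  Ex p fun x => f x * chi p S x

variable {p : ℝ}

lemma sd_pos (h0 : 0 < p) (h1 : p < 1) : 0 < sd p := Real.sqrt_pos.mpr (by nlinarith)
lemma sd_sq (h0 : 0 < p) (h1 : p < 1) : sd p ^ 2 = p * (1 - p) := Real.sq_sqrt (by nlinarith)

lemma W_nonneg (h0 : 0 ≤ p) (h1 : p ≤ 1) (x : E → Bool) : 0 ≤ W p x :=
  Finset.prod_nonneg fun e _ => by unfold wt; split_ifs <;> linarith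

lemma Ex_mono (h0 : 0 ≤ p) (h1 : p ≤ 1) {g h : (E → Bool) → ℝ} (hgh : ∀ x, g x ≤ h x) :
    Ex p g ≤ Ex p h :=
  Finset.sum_le_sum fun x _ => mul_le_mul_of_nonneg_left (hgh x) (W_nonneg h0 h1 x)

lemma Ex_add (g h : (E → Bool) → ℝ) : Ex p (fun x => g x + h x) = Ex p g + Ex p h := by
  simp only [Ex, mul_add, Finset.sum_add_distrib]
lemma Ex_sub (g h : (E → Bool) → ℝ) : Ex p (fun x => g x - h x) = Ex p g - Ex p h := by
  simp only [Ex, mul_sub, Finset.sum_sub_distrib]
lemma Ex_mul (c : ℝ) (g : (E → Bool) → ℝ) : Ex p (fun x => c * g x) = c * Ex p g := by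
  simp only [Ex, Finset.mul_sum]; exact Finset.sum_congr rfl fun _ _ => by ring
lemma Ex_sum {ι : Type*} (s : Finset ι) (g : ι → (E → Bool) → ℝ) :
    Ex p (fun x => ∑ i ∈ s, g i x) = ∑ i ∈ s, Ex p (g i) := by
  simp only [Ex, Finset.mul_sum]; exact Finset.sum_comm

lemma Ex_prod (h : E → Bool → ℝ) :
    Ex p (fun x => ∏ e, h e (x e)) = ∏ e, (p * h e true + (1 - p) * h e false) := by
  have := Finset.prod_univ_sum (fun _ : E => (univ : Finset Bool)) (fun e b => wt p b * h e b)
  rw [Fintype.piFinset_univ] at this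
  simp only [Ex, W, ← Finset.prod_mul_distrib]
  rw [← this]
  refine Finset.prod_congr rfl fun e _ => ?_
  simp [wt]

lemma Ex_const (c : ℝ) : Ex p (fun _ : E → Bool => c) = c := by
  have := Ex_prod (E := E) (p := p) (fun _ _ => 1)
  have h2 := Ex_mul (E := E) (p := p) c (fun _ => 1)
  simp only [Finset.prod_const_one, mul_one, add_sub_cancel] at this h2
  rw [h2, this, mul_one]

lemma chi_eq (S : Finset E) (x : E → Bool) :
    chi p S x = ∏ e, if e ∈ S then ph p (x e) else 1 := by
  rw [Finset.prod_ite_mem, Finset.univ_inter]; rfl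

lemma ph_mean (h0 : 0 < p) (h1 : p < 1) : p * ph p true + (1 - p) * ph p false = 0 := by
  have := sd_pos h0 h1
  simp only [ph]; field_simp; simp; ring
lemma ph_sq (h0 : 0 < p) (h1 : p < 1) :
    p * (ph p true * ph p true) + (1 - p) * (ph p false * ph p false) = 1 := by
  have := sd_pos h0 h1
  simp only [ph]; field_simp; rw [sd_sq h0 h1]; simp; ring

lemma Ex_chi_chi (h0 : 0 < p) (h1 : p < 1) (S T : Finset E) :
    Ex p (fun x => chi p S x * chi p T x) = if S = T then 1 else 0 := by
  simp only [chi_eq, ← Finset.prod_mul_distrib]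
  rw [Ex_prod (fun e b => (if e ∈ S then ph p b else 1) * (if e ∈ T then ph p b else 1))]
  split_ifs with h
  · subst h
    refine Finset.prod_eq_one fun e _ => ?_
    split_ifs
    · exact ph_sq h0 h1
    · ring
  · obtain ⟨e, he⟩ : ∃ e, ¬ (e ∈ S ↔ e ∈ T) := by
      by_contra hc; push Not at hc; exact h (Finset.ext hc)
    refine Finset.prod_eq_zero (Finset.mem_univ e) ?_
    by_cases a : e ∈ S <;> by_cases b : e ∈ T <;> simp only [a, b, if_true, if_false] at he ⊢
    · simp at he
    · simpa using ph_mean h0 h1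
    · simpa using ph_mean h0 h1
    · simp at he

lemma inversion (h0 : 0 < p) (h1 : p < 1) (f : (E → Bool) → ℝ) (x : E → Bool) :
    f x = ∑ S, hat p f S * chi p S x := by
  have hs := sd_pos h0 h1
  have key : ∀ z : E → Bool, W p z * ∑ S : Finset E, chi p S z * chi p S x = if z = x then 1 else 0 := by
    intro z
    have : ∑ S : Finset E, chi p S z * chi p S x = ∏ e, (1 + ph p (z e) * ph p (x e)) := by
      rw [Finset.prod_one_add, Finset.powerset_univ]
      simp only [chi, Finset.prod_mul_distrib]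
    rw [this, W, ← Finset.prod_mul_distrib]
    have e1 : ∀ a b : Bool, wt p a * (1 + ph p a * ph p b) = if a = b then 1 else 0 := by
      intro a b
      have := sd_sq h0 h1
      cases a <;> cases b <;> simp only [wt, ph] <;> simp <;> field_simp <;> 
        first | (rw [this]; ring1) | (right; rw [this]; ring1)
    simp only [e1]
    split_ifs with h
    · subst h; simp
    · obtain ⟨e, he⟩ := Function.ne_iff.mp h
      exact Finset.prod_eq_zero (Finset.mem_univ e) (if_neg he)
  calc f x = ∑ z, f z * (if z = x then 1 else 0) := by simp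
    _ = _ := by
      simp only [← key, hat, Ex, Finset.sum_mul, Finset.mul_sum]
      rw [Finset.sum_comm]
      exact Finset.sum_congr rfl fun _ _ => Finset.sum_congr rfl fun _ _ => by ring

lemma Ex_mul_sum (f : (E → Bool) → ℝ) (F : Finset (Finset E)) (c : Finset E → ℝ) :
    Ex p (fun x => f x * ∑ S ∈ F, c S * chi p S x) = ∑ S ∈ F, c S * hat p f S := by
  simp only [Finset.mul_sum]
  rw [Ex_sum]
  refine Finset.sum_congr rfl fun S _ => ?_
  rw [hat, ← Ex_mul]; congr 1; ext x; ring

lemma hat_sum (h0 : 0 < p) (h1 : p < 1) (F : Finset (Finset E)) (c : Finset E → ℝ) (T : Finset E) :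
    hat p (fun x => ∑ S ∈ F, c S * chi p S x) T = if T ∈ F then c T else 0 := by
  simp only [hat, Finset.sum_mul, mul_assoc]
  rw [Ex_sum]
  simp only [Ex_mul, Ex_chi_chi h0 h1, mul_ite, mul_one, mul_zero]
  rw [Finset.sum_ite_eq']

lemma Ex_sum_sum (h0 : 0 < p) (h1 : p < 1) (F G : Finset (Finset E)) (c d : Finset E → ℝ) :
    Ex p (fun x => (∑ S ∈ F, c S * chi p S x) * ∑ S ∈ G, d S * chi p S x) =
      ∑ S ∈ G ∩ F, d S * c S := by
  rw [Ex_mul_sum]
  simp only [hat_sum h0 h1, mul_ite, mul_zero]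
  rw [Finset.sum_ite_mem]

lemma parseval (h0 : 0 < p) (h1 : p < 1) (f : (E → Bool) → ℝ) :
    Ex p (fun x => f x * f x) = ∑ S, hat p f S ^ 2 := by
  have : (fun x => f x * f x) = fun x => f x * ∑ S, hat p f S * chi p S x := by
    ext x; rw [← inversion h0 h1]
  rw [this, Ex_mul_sum]; simp only [sq]

lemma chi_piecewise (A S : Finset E) (x y : E → Bool) :
    chi p S (A.piecewise x y) = chi p (S ∩ A) x * chi p (S \ A) y := by
  unfold chi
  rw [← Finset.prod_inter_mul_prod_sdiff S A]
  congr 1
  · exact Finset.prod_congr rfl fun e he => by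
      rw [Finset.piecewise_eq_of_mem _ _ _ (Finset.mem_inter.mp he).2]
  · exact Finset.prod_congr rfl fun e he => by
      rw [Finset.piecewise_eq_of_notMem _ _ _ (Finset.mem_sdiff.mp he).2]

lemma Ex_split (e : E) (g : (E → Bool) → ℝ) : Ex p g =
    Ex p (fun x => p * g (Function.update x e true) + (1 - p) * g (Function.update x e false)) := by
  have hW : ∀ x : E → Bool, W p x = wt p (x e) * ∏ j ∈ univ.erase e, wt p (x j) := fun x =>
    (Finset.mul_prod_erase _ _ (Finset.mem_univ e)).symm
  have hs : ∀ h : (E → Bool) → ℝ, ∑ x, h x =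
      ∑ x : E → Bool, if x e = true then h x + h (Function.update x e false) else 0 := by
    intro h
    rw [← Finset.sum_filter, Finset.sum_add_distrib,
      ← Finset.sum_filter_add_sum_filter_not univ (fun x : E → Bool => x e = true)]
    congr 1
    symm
    refine Finset.sum_nbij' (fun x => Function.update x e false) (fun x => Function.update x e true)
      ?_ ?_ ?_ ?_ ?_
    · intro x _; simp
    · intro x _; simp
    · intro x hx; simp only [Finset.mem_filter, Finset.mem_univ, true_and] at hx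
      simp only [Function.update_idem]; rw [← hx, Function.update_eq_self]
    · intro x hx; simp only [Finset.mem_filter, Finset.mem_univ, true_and, Bool.not_eq_true] at hx
      simp only [Function.update_idem]; rw [← hx, Function.update_eq_self]
    · intro x _; rfl
  unfold Ex
  rw [hs, hs (fun x => W p x * _)]
  refine Finset.sum_congr rfl fun x _ => ?_
  split_ifs with hx
  · have e1 : ∏ j ∈ univ.erase e, wt p (Function.update x e false j) =
        ∏ j ∈ univ.erase e, wt p (x j) :=
      Finset.prod_congr rfl fun j hj => by rw [Function.update_of_ne (Finset.ne_of_mem_erase hj)]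
    have e2 : Function.update x e true = x := by rw [← hx, Function.update_eq_self]
    rw [hW x, hW (Function.update x e false), e1]
    simp only [Function.update_idem, Function.update_self, e2, hx, wt]
    simp; ring
  · rfl

lemma Ex_cs (h0 : 0 ≤ p) (h1 : p ≤ 1) (g h : (E → Bool) → ℝ) {a b : ℝ} (ha : 0 ≤ a) (hb : 0 ≤ b)
    (hg : Ex p (fun x => g x ^ 4) ≤ a ^ 2) (hh : Ex p (fun x => h x ^ 4) ≤ b ^ 2) :
    Ex p (fun x => g x ^ 2 * h x ^ 2) ≤ a * b := by
  have := Finset.sum_sq_le_sum_mul_sum_of_sq_le_mul (univ : Finset (E → Bool))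
    (r := fun x => W p x * (g x ^ 2 * h x ^ 2)) (f := fun x => W p x * g x ^ 4)
    (g := fun x => W p x * h x ^ 4)
    (fun x _ => mul_nonneg (W_nonneg h0 h1 x) (by positivity))
    (fun x _ => mul_nonneg (W_nonneg h0 h1 x) (by positivity)) (fun x _ => le_of_eq (by ring))
  have h2 : (Ex p fun x => g x ^ 2 * h x ^ 2) ^ 2 ≤ (a * b) ^ 2 := by
    refine this.trans ?_
    rw [mul_pow]
    exact mul_le_mul hg hh (Finset.sum_nonneg fun x _ =>
      mul_nonneg (W_nonneg h0 h1 x) (by positivity)) (by positivity)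
  exact abs_le_of_sq_le_sq' h2 (by positivity) |>.2

lemma sd_le (h0 : 0 < p) (h1 : p < 1) : sd p ≤ 1 / 2 := by
  have := sd_sq h0 h1
  have := sd_pos h0 h1
  nlinarith [sq_nonneg (p - 1 / 2)]

lemma quartic (h0 : 0 < p) (h1 : p < 1) (a b : ℝ) :
    p * (a + ph p true * b) ^ 4 + (1 - p) * (a + ph p false * b) ^ 4 ≤
      a ^ 4 + 8 * (a ^ 2 * b ^ 2) + (2 / sd p) ^ 2 * b ^ 4 := by
  have hs := sd_pos h0 h1
  have hq := sd_sq h0 h1
  obtain ⟨c, rfl⟩ : ∃ c, b = sd p * c := ⟨b / sd p, by field_simp⟩
  have e1 : ph p true * (sd p * c) = (1 - p) * c := by simp only [ph]; field_simp; simp; ring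
  have e2 : ph p false * (sd p * c) = -p * c := by simp only [ph]; field_simp; simp
  have e3 : (2 / sd p) ^ 2 * (sd p * c) ^ 4 = 4 * (p * (1 - p)) * c ^ 4 := by
    rw [← hq]; field_simp; ring
  rw [e1, e2, e3, mul_pow, hq]
  have hp : 0 ≤ p * (1 - p) := by nlinarith
  have k1 : 0 ≤ p * (1 - p) * (a * c - (1 - 2 * p) * c ^ 2) ^ 2 := by positivity
  have k2 : 0 ≤ p * (1 - p) * (p * (1 - p)) * c ^ 4 := by positivity
  have k3 : 0 ≤ p * (1 - p) * c ^ 4 := by positivity
  nlinarith

/-- Bonami's lemma for the biased cube -/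
lemma bonami (h0 : 0 < p) (h1 : p < 1) (A : Finset E) : ∀ c : Finset E → ℝ,
    Ex p (fun x => (∑ S ∈ A.powerset, c S * chi p S x) ^ 4) ≤
      (∑ S ∈ A.powerset, (2 / sd p) ^ S.card * c S ^ 2) ^ 2 := by
  have hs := sd_pos h0 h1
  have h4 : 4 ≤ 2 / sd p := by rw [le_div_iff₀ hs]; linarith [sd_le h0 h1]
  induction A using Finset.induction_on with
  | empty => intro c; simp [chi, Ex_const]; apply le_of_eq; ring
  | insert e A he ih =>
    intro c
    have i0 := ih c
    have i1 := ih fun S => c (insert e S)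
    set N0 := ∑ S ∈ A.powerset, (2 / sd p) ^ S.card * c S ^ 2
    set N1 := ∑ S ∈ A.powerset, (2 / sd p) ^ S.card * c (insert e S) ^ 2 with hN1
    have n0 : 0 ≤ N0 := Finset.sum_nonneg fun _ _ => by positivity
    have n1 : 0 ≤ N1 := Finset.sum_nonneg fun _ _ => by positivity
    have hn : ∀ S ∈ A.powerset, e ∉ S := fun S hS h => he (Finset.mem_powerset.mp hS h)
    have e1 : ∑ S ∈ (insert e A).powerset, (2 / sd p) ^ S.card * c S ^ 2 = N0 + 2 / sd p * N1 := by
      rw [Finset.sum_powerset_insert he, hN1, Finset.mul_sum]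
      congr 1
      exact Finset.sum_congr rfl fun S hS => by
        rw [Finset.card_insert_of_notMem (hn S hS), pow_succ]; ring
    have hu : ∀ S ∈ A.powerset, ∀ x b, chi p S (Function.update x e b) = chi p S x := by
      intro S hS x b
      exact Finset.prod_congr rfl fun j hj => by
        rw [Function.update_of_ne (fun h : j = e => hn S hS (h ▸ hj))]
    have e2 : ∀ x b, ∑ S ∈ (insert e A).powerset, c S * chi p S (Function.update x e b) =
        (∑ S ∈ A.powerset, c S * chi p S x) +
          ph p b * ∑ S ∈ A.powerset, c (insert e S) * chi p S x := by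
      intro x b
      rw [Finset.sum_powerset_insert he, Finset.mul_sum]
      congr 1
      · exact Finset.sum_congr rfl fun S hS => by rw [hu S hS]
      · refine Finset.sum_congr rfl fun S hS => ?_
        have : chi p (insert e S) (Function.update x e b) = ph p b * chi p S x := by
          rw [← hu S hS x b]; unfold chi; rw [Finset.prod_insert (hn S hS), Function.update_self]
        rw [this]; ring
    rw [Ex_split e, e1]
    simp only [e2]
    refine (Ex_mono h0.le h1.le fun x => quartic h0 h1 _ _).trans ?_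
    rw [Ex_add, Ex_add, Ex_mul, Ex_mul]
    have i2 := Ex_cs h0.le h1.le _ _ n0 n1 i0 i1
    have : (2 / sd p) ^ 2 * (Ex p fun x => (∑ S ∈ A.powerset, c (insert e S) * chi p S x) ^ 4) ≤
        (2 / sd p) ^ 2 * N1 ^ 2 := by gcongr
    have : 4 * (N0 * N1) ≤ 2 / sd p * (N0 * N1) := by gcongr
    nlinarith

end Vale.Agent.P063
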