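import Vale.Agent.P063.Core
import Vale.Agent.P063.Defs

namespace Vale.Agent.P063

open Finset

lemma choose_step_out (M j : ℕ) (hM : 1 ≤ M) (hj : j ≤ M) :
    ((M - 1).choose j : ℝ) * M = M.choose j * (M - j : ℝ) := by
  obtain ⟨M, rfl⟩ : ∃ M', M = M' + 1 := ⟨M - 1, by omega⟩
  have := Nat.choose_mul_succ_eq M j
  rw [Nat.add_sub_cancel, ← Nat.cast_sub hj]; exact_mod_cast this

lemma choose_low (N a L : ℕ) (γ : ℝ) (hγ0 : 0 ≤ γ) (h2 : a + L ≤ N)
    (hγ : γ * N ≤ (N - a - L : ℝ)) (o : ℕ) (h : o ≤ L) :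
    (N.choose a : ℝ) * γ ^ o ≤ (N - o).choose a := by
  induction o with
  | zero => simp
  | succ o ih =>
    have ih := ih (by omega)
    have hs := choose_step_out (N - o) a (by omega) (by omega)
    have hM0 : (0:ℝ) < ((N - o : ℕ) : ℝ) := by exact_mod_cast (by omega : 0 < N - o)
    have hj : γ * ((N - o : ℕ) : ℝ) ≤ ((N - o : ℕ) : ℝ) - a := by
      rw [Nat.cast_sub (by omega)]
      have : (o:ℝ) ≤ L := by exact_mod_cast (by omega : o ≤ L)
      have : (0:ℝ) ≤ γ * o := by positivity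
      nlinarith
    rw [Nat.sub_sub] at hs
    have : ((N - o).choose a : ℝ) * γ ≤ (N - (o + 1)).choose a := by
      refine le_of_mul_le_mul_right ?_ hM0
      rw [hs, mul_assoc]; gcongr
    rw [pow_succ, ← mul_assoc]
    exact le_trans (by gcongr) this

lemma choose_half (N a L o : ℕ) (hL : 1 ≤ L) (h : 2 * L * (a + L) ≤ N) (ho : o ≤ L) :
    (N.choose a : ℝ) / 2 ≤ (N - o).choose a := by
  have L1 : (1:ℝ) ≤ L := by exact_mod_cast hL
  have hR : 2 * (L:ℝ) * (a + L) ≤ N := by exact_mod_cast h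
  have g1 : 1 / (2 * (L:ℝ)) ≤ 1 := by rw [div_le_one (by positivity)]; linarith
  have := choose_low N a L (1 - 1 / (2 * L)) (by linarith) (by nlinarith) (by
    have : (a:ℝ) + L ≤ 1 / (2 * L) * N := by
      rw [one_div, inv_mul_eq_div, le_div_iff₀ (by positivity)]; linarith
    linarith) o ho
  refine le_trans ?_ this
  have b := one_add_mul_le_pow (a := -(1 / (2 * (L:ℝ)))) (by linarith) o
  have oL : (o:ℝ) ≤ L := by exact_mod_cast ho
  have : (o:ℝ) * (1 / (2 * L)) ≤ 1 / 2 := by
    rw [mul_one_div, div_le_div_iff₀ (by positivity) (by norm_num)]; linarith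
  rw [div_eq_mul_one_div, sub_eq_add_neg]
  gcongr; linarith

variable {n r : ℕ} {p : ℝ}

def permE (σ : Equiv.Perm (Fin n)) : Edge n r ≃ Edge n r where
  toFun := permEdge σ
  invFun := permEdge σ.symm
  left_inv e := Subtype.ext (by simp [permEdge, Finset.map_map])
  right_inv e := Subtype.ext (by simp [permEdge, Finset.map_map])

def Vs (S : Finset (Edge n r)) : Finset (Fin n) := S.biUnion fun e => e.1
def dg (S : Finset (Edge n r)) (v : Fin n) : ℕ := (S.filter fun e => v ∈ e.1).card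

lemma card_Vs_le (S : Finset (Edge n r)) : (Vs S).card ≤ r * S.card := by
  refine Finset.card_biUnion_le.trans (le_of_eq ?_)
  rw [Finset.sum_congr rfl fun (e : Edge n r) _ => e.2]; simp [mul_comm]

lemma exists_low (hr : 1 ≤ r) (S : Finset (Edge n r)) (hS : S ≠ ∅) (K k : ℕ) (hK : S.card ≤ K)
    (h : r ^ r * K ^ (r - 1) ≤ k ^ r) : ∃ v ∈ Vs S, dg S v ≤ k := by
  by_contra hc
  push Not at hc
  have h1 : S.card ≤ (Vs S).card ^ r := by
    refine le_trans ?_ (Nat.choose_le_pow _ r)
    rw [← Finset.card_powersetCard]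
    refine Finset.card_le_card_of_injOn (fun e => e.1) (fun e he => ?_) fun _ _ _ _ h => Subtype.ext h
    exact Finset.mem_coe.mpr (Finset.mem_powersetCard.mpr
      ⟨Finset.subset_biUnion_of_mem (fun e : Edge n r => e.1) he, e.2⟩)
  have h2 : ∑ v ∈ Vs S, dg S v = r * S.card := by
    simp only [dg, Finset.card_filter]
    rw [Finset.sum_comm, mul_comm, ← smul_eq_mul, ← Finset.sum_const]
    refine Finset.sum_congr rfl fun e he => ?_
    rw [← Finset.card_filter, Finset.filter_mem_eq_inter, Finset.inter_eq_right.mpr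
      (show e.1 ⊆ Vs S from Finset.subset_biUnion_of_mem (fun e : Edge n r => e.1) he), e.2]
  have h3 : (Vs S).card * (k + 1) ≤ r * S.card := by
    rw [← h2, ← smul_eq_mul, ← Finset.sum_const]
    exact Finset.sum_le_sum fun v hv => hc v hv
  have h4 : 0 < S.card := Finset.card_pos.mpr (Finset.nonempty_iff_ne_empty.mpr hS)
  have h5 : S.card * (k + 1) ^ r ≤ S.card * (r ^ r * K ^ (r - 1)) := by
    calc S.card * (k + 1) ^ r ≤ (Vs S).card ^ r * (k + 1) ^ r := Nat.mul_le_mul_right _ h1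
      _ = ((Vs S).card * (k + 1)) ^ r := (mul_pow _ _ _).symm
      _ ≤ (r * S.card) ^ r := Nat.pow_le_pow_left h3 _
      _ = S.card * (r ^ r * S.card ^ (r - 1)) := by
          obtain ⟨r', rfl⟩ : ∃ r', r = r' + 1 := ⟨r - 1, by omega⟩
          simp only [Nat.add_sub_cancel]; rw [mul_pow]; ring
      _ ≤ _ := by gcongr
  have h6 := Nat.le_of_mul_le_mul_left h5 h4
  have h7 : k ^ r < (k + 1) ^ r := Nat.pow_lt_pow_left (by omega) (by omega)
  omega

lemma vertex_bound (h0 : 0 < p) (h1 : p < 1) (f : (Edge n r → Bool) → ℝ)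
    (hf : ∀ x, f x = 0 ∨ f x = 1) (hinv : ∀ σ x, f (x ∘ permE σ) = f x) (v : Fin n)
    (M' : Finset (Fin n)) (hv : v ∉ M') (k : ℕ) (t : ℝ) (ht : 0 < t)
    (h : 2 * (2 / sd p) ^ (2 * k) ≤ (M'.card + 1) * t ^ 3) :
    ∑ S ∈ univ.filter (fun S => v ∈ Vs S ∧ Disjoint (Vs S) M' ∧ dg S v ≤ k), hat p f S ^ 2 ≤
      4 * t * ∑ S ∈ univ.filter (fun S => v ∈ Vs S), hat p f S ^ 2 := by
  set M := insert v M' with hM
  have hvM : v ∈ M := Finset.mem_insert_self _ _
  set A : Finset (Edge n r) := univ.filter fun e => ¬ Disjoint e.1 M with hA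
  set X : Fin n → Finset (Edge n r) := fun a => univ.filter fun e => e.1 ∩ M = {a} with hX
  have hc : M.card = M'.card + 1 := Finset.card_insert_of_notMem hv
  have sb := sym_bound h0 h1 f hf M A X v ?_ ?_ k t (by omega) ht (by rw [hc]; push_cast; exact h)
  · refine le_trans ?_ (sb.trans ?_)
    · refine Finset.sum_le_sum_of_subset_of_nonneg (fun S hS => ?_) fun _ _ _ => sq_nonneg _
      simp only [Finset.mem_filter, Finset.mem_univ, true_and] at hS
      obtain ⟨a1, a2, a3⟩ := hS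
      have b : ∀ e ∈ S, ∀ u ∈ e.1, u ∈ M → u = v := by
        intro e he u hu huM
        rcases Finset.mem_insert.mp huM with h | h
        · exact h
        · exact absurd h (Finset.disjoint_left.mp a2 (Finset.mem_biUnion.mpr ⟨e, he, hu⟩))
      have c : S ∩ A = S.filter fun e => v ∈ e.1 := by
        ext e
        simp only [hA, Finset.mem_inter, Finset.mem_filter, Finset.mem_univ, true_and,
          Finset.not_disjoint_iff, and_congr_right_iff]
        intro he
        exact ⟨fun ⟨u, hu, huM⟩ => b e he u hu huM ▸ hu, fun h => ⟨v, h, hvM⟩⟩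
      simp only [low, Finset.mem_filter, Finset.mem_univ, true_and, Finset.mem_powerset, c]
      refine ⟨fun e he => ?_, ?_, a3⟩
      · rw [Finset.mem_filter] at he
        simp only [hX, Finset.mem_filter, Finset.mem_univ, true_and]
        ext u; simp only [Finset.mem_inter, Finset.mem_singleton]
        exact ⟨fun h => b e he.1 u h.1 h.2, fun h => h ▸ ⟨he.2, hvM⟩⟩
      · obtain ⟨e, he, hve⟩ := Finset.mem_biUnion.mp a1
        exact Finset.ne_empty_of_mem (Finset.mem_filter.mpr ⟨he, hve⟩)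
    · refine mul_le_mul_of_nonneg_left ?_ (by positivity)
      refine Finset.sum_le_sum_of_subset_of_nonneg (fun S hS => ?_) fun _ _ _ => sq_nonneg _
      simp only [touch, Finset.mem_filter, Finset.mem_univ, true_and] at hS ⊢
      obtain ⟨e, he⟩ := Finset.nonempty_iff_ne_empty.mpr hS
      simp only [hX, Finset.mem_inter, Finset.mem_filter, Finset.mem_univ, true_and] at he
      refine Finset.mem_biUnion.mpr ⟨e, he.1.1, ?_⟩
      have : v ∈ e.1 ∩ M := he.2 ▸ Finset.mem_singleton_self v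
      exact (Finset.mem_inter.mp this).1
  · intro a _ b _ hab
    refine Finset.disjoint_left.mpr fun e h1 h2 => hab ?_
    simp only [hX, Finset.mem_filter, Finset.mem_univ, true_and] at h1 h2
    exact Finset.singleton_injective (h1.symm.trans h2)
  · intro a ha
    have sw : ∀ u, Equiv.swap v a u ∈ M ↔ u ∈ M := by
      intro u
      by_cases h1 : u = v
      · subst h1; simp [ha, hvM]
      · by_cases h2 : u = a
        · subst h2; simp [ha, hvM]
        · rw [Equiv.swap_apply_of_ne_of_ne h1 h2]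
    have me : ∀ (e : Edge n r) u, u ∈ (permE (Equiv.swap v a) e).1 ↔ Equiv.swap v a u ∈ e.1 := by
      intro e u
      show u ∈ e.1.map _ ↔ _
      rw [Finset.mem_map_equiv, Equiv.symm_swap]
    refine ⟨permE (Equiv.swap v a), hinv _, fun e he => ?_, fun e he => ?_, fun e he => ?_⟩
    · simp only [hA, Finset.mem_filter, Finset.mem_univ, true_and, not_not] at he
      apply Subtype.ext; ext u; rw [me]
      by_cases h : u ∈ M
      · exact ⟨fun h' => absurd ((sw u).mpr h) (Finset.disjoint_left.mp he h'),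
          fun h' => absurd h (Finset.disjoint_left.mp he h')⟩
      · rw [Equiv.swap_apply_of_ne_of_ne (fun h' : u = v => h (h' ▸ hvM)) (fun h' : u = a => h (h' ▸ ha))]
    · simp only [hA, Finset.mem_filter, Finset.mem_univ, true_and, Finset.not_disjoint_iff] at he ⊢
      obtain ⟨u, hu, huM⟩ := he
      exact ⟨Equiv.swap v a u, by rw [me, Equiv.swap_apply_self]; exact hu, (sw u).mpr huM⟩
    · simp only [hX, Finset.mem_filter, Finset.mem_univ, true_and] at he ⊢
      ext u
      rw [Finset.mem_inter, me, ← sw u, ← Finset.mem_inter, he, Finset.mem_singleton,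
        Finset.mem_singleton, Equiv.swap_apply_eq_iff, Equiv.swap_apply_left]

lemma low_weight (h0 : 0 < p) (h1 : p < 1) (hr : 1 ≤ r) (f : (Edge n r → Bool) → ℝ)
    (hf : ∀ x, f x = 0 ∨ f x = 1) (hinv : ∀ σ x, f (x ∘ permE σ) = f x) (m K k : ℕ) (t : ℝ)
    (ht : 0 < t) (h : 2 * (2 / sd p) ^ (2 * k) ≤ (m + 1) * t ^ 3) (hK : 1 ≤ K)
    (hk : r ^ r * K ^ (r - 1) ≤ k ^ r) (hn : 2 * (r * K) * (m + r * K) ≤ n - 1) :
    ∑ S ∈ univ.filter (fun S : Finset (Edge n r) => S ≠ ∅ ∧ S.card ≤ K), hat p f S ^ 2 ≤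
      8 * t * r * ∑ S : Finset (Edge n r), S.card * hat p f S ^ 2 := by
  have L1 : 1 ≤ r * K := Nat.mul_pos hr hK
  have hC : (0:ℝ) < (n - 1).choose m := by
    exact_mod_cast Nat.choose_pos (by nlinarith)
  have tot : ∑ v : Fin n, ∑ M' ∈ (univ.erase v).powersetCard m,
      ∑ S ∈ univ.filter (fun S => v ∈ Vs S ∧ Disjoint (Vs S) M' ∧ dg S v ≤ k), hat p f S ^ 2 ≤
      ∑ v : Fin n, ∑ _M' ∈ (univ.erase v).powersetCard m,
        4 * t * ∑ S ∈ univ.filter (fun S => v ∈ Vs S), hat p f S ^ 2 := by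
    refine Finset.sum_le_sum fun v _ => Finset.sum_le_sum fun M' hM' => ?_
    rw [Finset.mem_powersetCard] at hM'
    exact vertex_bound h0 h1 f hf hinv v M' (fun h => by simpa using hM'.1 h) k t ht
      (by rw [hM'.2]; exact h)
  have up : ∑ v : Fin n, ∑ _M' ∈ (univ.erase v).powersetCard m,
        4 * t * ∑ S ∈ univ.filter (fun S => v ∈ Vs S), hat p f S ^ 2 ≤
      (n - 1).choose m * (4 * t * r * ∑ S : Finset (Edge n r), S.card * hat p f S ^ 2) := by
    simp only [Finset.sum_const, Finset.card_powersetCard, Finset.card_erase_of_mem (Finset.mem_univ _),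
      Finset.card_univ, Fintype.card_fin, nsmul_eq_mul, ← Finset.mul_sum]
    rw [mul_assoc (4 * t)]
    gcongr
    simp only [Finset.sum_filter]
    rw [Finset.sum_comm, Finset.mul_sum]
    refine Finset.sum_le_sum fun S _ => ?_
    rw [Finset.sum_ite_mem, Finset.univ_inter, Finset.sum_const, nsmul_eq_mul, ← mul_assoc]
    gcongr; exact_mod_cast card_Vs_le S
  have lo : (n - 1).choose m / 2 *
      ∑ S ∈ univ.filter (fun S : Finset (Edge n r) => S ≠ ∅ ∧ S.card ≤ K), hat p f S ^ 2 ≤
      ∑ v : Fin n, ∑ M' ∈ (univ.erase v).powersetCard m,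
      ∑ S ∈ univ.filter (fun S => v ∈ Vs S ∧ Disjoint (Vs S) M' ∧ dg S v ≤ k), hat p f S ^ 2 := by
    simp only [Finset.sum_filter]
    rw [Finset.sum_congr rfl fun v _ => Finset.sum_comm, Finset.sum_comm, Finset.mul_sum]
    refine Finset.sum_le_sum fun S _ => ?_
    have nn : ∀ v : Fin n, 0 ≤ ∑ M' ∈ (univ.erase v).powersetCard m,
        (if v ∈ Vs S ∧ Disjoint (Vs S) M' ∧ dg S v ≤ k then hat p f S ^ 2 else 0) :=
      fun v => Finset.sum_nonneg fun _ _ => by split_ifs <;> positivity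
    split_ifs with hS
    · obtain ⟨v, hv1, hv2⟩ := exists_low hr S hS.1 K k hS.2 hk
      refine le_trans ?_ (Finset.single_le_sum (fun v _ => nn v) (Finset.mem_univ v))
      rw [← Finset.sum_filter, Finset.sum_const, nsmul_eq_mul]
      gcongr
      have c1 : 1 ≤ (Vs S).card := Finset.card_pos.mpr ⟨v, hv1⟩
      have c2 : (Vs S).card ≤ r * K := (card_Vs_le S).trans (Nat.mul_le_mul_left _ hS.2)
      refine (choose_half (n - 1) m (r * K) ((Vs S).card - 1) L1 hn (by omega)).trans ?_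
      have c3 : n - 1 - ((Vs S).card - 1) = (univ \ Vs S).card := by
        rw [Finset.card_univ_sdiff, Fintype.card_fin]; omega
      rw [c3, ← Finset.card_powersetCard]
      refine Nat.cast_le.mpr (Finset.card_le_card fun M' hM' => ?_)
      rw [Finset.mem_powersetCard] at hM'
      have d : Disjoint (Vs S) M' :=
        (Finset.disjoint_of_subset_left hM'.1 Finset.sdiff_disjoint).symm
      refine Finset.mem_filter.mpr ⟨Finset.mem_powersetCard.mpr ⟨fun u hu => ?_, hM'.2⟩, hv1, d, hv2⟩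
      exact Finset.mem_erase.mpr ⟨fun h => Finset.disjoint_left.mp d hv1 (h ▸ hu), Finset.mem_univ _⟩
    · rw [mul_zero]; exact Finset.sum_nonneg fun v _ => nn v
  have := lo.trans (tot.trans up)
  refine le_of_mul_le_mul_left ?_ (half_pos hC)
  linarith

lemma var_eq {E : Type} [Fintype E] [DecidableEq E] (h0 : 0 < p) (h1 : p < 1) (f : (E → Bool) → ℝ)
    (hf : ∀ x, f x = 0 ∨ f x = 1) :
    Ex p f * (1 - Ex p f) = ∑ S ∈ univ.filter (fun S : Finset E => S ≠ ∅), hat p f S ^ 2 := by
  have a := parseval h0 h1 f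
  have b : (fun x => f x * f x) = f := by ext x; rcases hf x with h | h <;> simp [h]
  have c : hat p f ∅ = Ex p f := by simp [hat, chi]
  rw [b, ← Finset.add_sum_erase _ _ (Finset.mem_univ ∅), c] at a
  rw [Finset.filter_ne']; linarith

lemma var_le {E : Type} [Fintype E] [DecidableEq E] (h0 : 0 < p) (h1 : p < 1) (f : (E → Bool) → ℝ)
    (hf : ∀ x, f x = 0 ∨ f x = 1) (K : ℕ) :
    Ex p f * (1 - Ex p f) ≤
      ∑ S ∈ univ.filter (fun S : Finset E => S ≠ ∅ ∧ S.card ≤ K), hat p f S ^ 2 +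
      1 / (K + 1) * ∑ S : Finset E, S.card * hat p f S ^ 2 := by
  rw [var_eq h0 h1 f hf, Finset.sum_filter, Finset.sum_filter, Finset.mul_sum,
    ← Finset.sum_add_distrib]
  refine Finset.sum_le_sum fun S _ => ?_
  have n1 : (0:ℝ) ≤ 1 / (K + 1) * (S.card * hat p f S ^ 2) := by positivity
  by_cases a : S ≠ ∅
  · by_cases b : S.card ≤ K
    · rw [if_pos a, if_pos ⟨a, b⟩]; linarith
    · rw [if_pos a, if_neg (fun h => b h.2), zero_add, ← mul_assoc]
      refine le_mul_of_one_le_left (sq_nonneg _) ?_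
      rw [one_div, inv_mul_eq_div, le_div_iff₀ (by positivity), one_mul]
      exact_mod_cast (by omega : K + 1 ≤ S.card)
  · rw [if_neg a, if_neg (fun h => a h.1)]; linarith

end Vale.Agent.P063
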